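import Vale.Agent.Lib.P064.Defs
import Vale.Agent.Lib.P064.Expect
import Vale.Agent.Lib.P064.PP.Fail

/-!
# P064 / Graph: graphs on `Fin n` as subsets of the set of the `C(n,2)` possible edges
-/

namespace Vale.Agent.Lib.P064

open SimpleGraph PP

/-- the possible edges of a graph on `Fin n` -/
abbrev Edge (n : ℕ) := {e : Sym2 (Fin n) // ¬ e.IsDiag}

theorem card_edge (n : ℕ) : Fintype.card (Edge n) = n.choose 2 := by
  have h := Sym2.card_subtype_not_diag (α := Fin n)
  rw [Fintype.card_fin] at h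
  rw [← h]

open scoped Classical in
/-- the edge set of `G` as a finite subset of `Edge n` -/
noncomputable def edgesOf {n : ℕ} (G : SimpleGraph (Fin n)) : Finset (Edge n) :=
  Finset.univ.filter (fun e => e.1 ∈ G.edgeSet)

theorem mem_edgesOf {n : ℕ} (G : SimpleGraph (Fin n)) (e : Edge n) :
    e ∈ edgesOf G ↔ e.1 ∈ G.edgeSet := by
  classical
  simp [edgesOf]

theorem card_edgesOf {n : ℕ} (G : SimpleGraph (Fin n)) :
    (edgesOf G).card = Nat.card G.edgeSet := by
  classical
  have e : {x : Edge n // x ∈ edgesOf G} ≃ G.edgeSet :=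
    { toFun := fun x => ⟨x.1.1, (mem_edgesOf G x.1).mp x.2⟩
      invFun := fun y => ⟨⟨y.1, G.not_isDiag_of_mem_edgeSet y.2⟩,
        (mem_edgesOf G _).mpr y.2⟩
      left_inv := fun x => rfl
      right_inv := fun y => rfl }
  rw [← Nat.card_congr e, Nat.card_eq_fintype_card, Fintype.card_coe]

theorem edgesOf_subset_iff {n : ℕ} (G G' : SimpleGraph (Fin n)) :
    edgesOf G ⊆ edgesOf G' ↔ G ≤ G' := by
  rw [← edgeSet_subset_edgeSet]
  constructor
  · intro h e he
    have := h ((mem_edgesOf G ⟨e, G.not_isDiag_of_mem_edgeSet he⟩).mpr he)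
    exact (mem_edgesOf G' _).mp this
  · intro h e he
    exact (mem_edgesOf G' e).mpr (h ((mem_edgesOf G e).mp he))

theorem edgesOf_bijective (n : ℕ) :
    Function.Bijective (edgesOf : SimpleGraph (Fin n) → Finset (Edge n)) := by
  classical
  constructor
  · intro G G' h
    exact le_antisymm ((edgesOf_subset_iff G G').mp h.subset)
      ((edgesOf_subset_iff G' G).mp h.symm.subset)
  · intro S
    refine ⟨fromEdgeSet {e | ∃ x ∈ S, x.1 = e}, ?_⟩
    ext e
    rw [mem_edgesOf, edgeSet_fromEdgeSet]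
    constructor
    · rintro ⟨⟨x, hx, hxe⟩, -⟩
      have : x = e := Subtype.ext hxe
      exact this ▸ hx
    · intro he
      exact ⟨⟨e, he, rfl⟩, e.2⟩

theorem gnpProb_eq_bern (n : ℕ) (p : ℝ) (G : SimpleGraph (Fin n)) :
    gnpProb n p G = bern p (edgesOf G) := by
  rw [gnpProb, bern, card_edge, card_edgesOf]

open scoped Classical in
/-- the edge sets of the copies of `H` in the complete graph on `Fin n` -/
noncomputable def copyFamily (n : ℕ) {V : Type} [Fintype V] (H : SimpleGraph V) :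
    Finset (Finset (Edge n)) :=
  Finset.univ.image (fun φ : V ↪ Fin n => edgesOf (H.map φ))

theorem mem_copyFamily (n : ℕ) {V : Type} [Fintype V] (H : SimpleGraph V)
    (S : Finset (Edge n)) : S ∈ copyFamily n H ↔ ∃ φ : V ↪ Fin n, edgesOf (H.map φ) = S := by
  classical
  simp [copyFamily]

theorem card_of_mem_copyFamily (n : ℕ) {V : Type} [Fintype V] (H : SimpleGraph V)
    (S : Finset (Edge n)) (hS : S ∈ copyFamily n H) : S.card = Nat.card H.edgeSet := by
  obtain ⟨φ, rfl⟩ := (mem_copyFamily n H S).mp hS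
  rw [card_edgesOf, card_edgeSet_map]

theorem copyFamily_nonempty (n : ℕ) {V : Type} [Fintype V] (H : SimpleGraph V)
    (hV : Fintype.card V ≤ n) : (copyFamily n H).Nonempty := by
  obtain ⟨φ⟩ : Nonempty (V ↪ Fin n) :=
    Function.Embedding.nonempty_of_card_le (by rwa [Fintype.card_fin])
  exact ⟨_, (mem_copyFamily n H _).mpr ⟨φ, rfl⟩⟩

theorem exists_mem_copyFamily_subset_iff (n : ℕ) {V : Type} [Fintype V] (H : SimpleGraph V)
    (G : SimpleGraph (Fin n)) :
    (∃ S ∈ copyFamily n H, S ⊆ edgesOf G) ↔ 0 < G.copyCount H := by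
  rw [copyCount_pos]
  constructor
  · rintro ⟨S, hS, hSG⟩
    obtain ⟨φ, rfl⟩ := (mem_copyFamily n H S).mp hS
    have h := (edgesOf_subset_iff _ _).mp hSG
    have h' := (map_le_iff_le_comap φ H G).mp h
    exact ⟨⟨⟨φ, fun {a b} hab => h' hab⟩, φ.injective⟩⟩
  · rintro ⟨f⟩
    refine ⟨edgesOf (H.map f.toEmbedding), (mem_copyFamily n H _).mpr ⟨f.toEmbedding, rfl⟩, ?_⟩
    rw [edgesOf_subset_iff, map_le_iff_le_comap]
    intro a b h
    exact f.toHom.map_adj h

/-- the probability that `G(n,p)` contains a copy of `H` -/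
theorem sum_gnpProb_contains (n : ℕ) (p : ℝ) {V : Type} [Fintype V] (H : SimpleGraph V) :
    ∑ G : SimpleGraph (Fin n), (if 0 < G.copyCount H then gnpProb n p G else 0) =
      1 - failProb p (copyFamily n H) := by
  classical
  rw [← sum_success]
  refine Fintype.sum_bijective edgesOf (edgesOf_bijective n) _ _ ?_
  intro G
  by_cases h : 0 < G.copyCount H
  · rw [if_pos h, if_pos ((exists_mem_copyFamily_subset_iff n H G).mpr h), gnpProb_eq_bern]
  · rw [if_neg h, if_neg (fun h' => h ((exists_mem_copyFamily_subset_iff n H G).mp h'))]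

end Vale.Agent.Lib.P064
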