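import Vale.Agent.Lib.P064.Main
import Vale.Agent.Lib.P064.Graph.Transfer
import Vale.Agent.Lib.P064.PP.Iterate

/-!
# P064 / Graph: the uniform measure on the copies of `H` is spread

Blueprint.
`card_embeddings_ge_le`: let `K` be a graph on `Fin n`, `S = K.support`, `k = |S|`. An embedding
`φ : V ↪ Fin n` with `K ≤ H.map φ` has `S ⊆ range φ`, and `θ_φ = φ⁻¹` restricted to `S` is a labelled copy of
`K.induce S` in `H`. For a fixed copy `θ` the embeddings `φ` with `θ_φ = θ` are determined by their restriction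
to the complement of `range θ`, which is an embedding into the complement of `S`; there are
`(n-k).descFactorial (|V|-k)` such embeddings (compare the proof of `card_copy_le_induce_support`).
`card_embeddings_ge_le'`: combine with the hypothesis `Spread n P H` (applied to the pattern
`K.induce K.support`), `card_edgeSet_le_induce_support`, `pow_le_pow_of_le_one` and
`Nat.descFactorial_mul_descFactorial` (if `|V| < k` there is no copy at all).
`coverCost_copyFamily`: if `𝒢` covers `copyFamily n H`, every `φ` has some `T ∈ 𝒢` with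
`T ⊆ edgesOf (H.map φ)`; write `T = edgesOf K` (`edgesOf_bijective`), so
`n.descFactorial |V| = #φ ≤ ∑_{T ∈ 𝒢} #{φ : K_T ≤ H.map φ} ≤ ∑_T n.descFactorial |V| * P^|T|`, and divide by
`n.descFactorial |V| > 0`.
-/

namespace Vale.Agent.Lib.P064

open SimpleGraph PP

variable {V : Type}

/-- the counting hypothesis: every pattern `F` on at most `n` vertices has at most
`(n)_{v(F)} P^{e(F)}` labelled copies in `H` -/
def Spread (n : ℕ) (P : ℝ) (H : SimpleGraph V) : Prop :=
  ∀ (W : Type) [Finite W] (F : SimpleGraph W), Nat.card W ≤ n →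
    (Nat.card (Copy F H) : ℝ) ≤ (n.descFactorial (Nat.card W) : ℝ) * P ^ Nat.card F.edgeSet

theorem exists_preimage_of_mem_support [Fintype V] (n : ℕ) (H : SimpleGraph V)
    (K : SimpleGraph (Fin n)) (φ : V ↪ Fin n) (h : K ≤ H.map φ) (s : Fin n) (hs : s ∈ K.support) :
    ∃ u, φ u = s := by
  obtain ⟨t, hst⟩ := (K.mem_support).mp hs
  have h1 := h hst
  rw [SimpleGraph.map_adj] at h1
  obtain ⟨u, v, _, hu, _⟩ := h1
  exact ⟨u, hu⟩

theorem card_embeddings_ge_le [Fintype V] [DecidableEq V] (n : ℕ) (H : SimpleGraph V)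
    (K : SimpleGraph (Fin n)) :
    Nat.card {φ : V ↪ Fin n // K ≤ H.map φ} ≤
      Nat.card (Copy (K.induce K.support) H) *
        (n - Nat.card K.support).descFactorial (Fintype.card V - Nat.card K.support) := by
  classical
  have : Fintype (Copy (K.induce K.support) H) := Fintype.ofFinite _
  -- the inverse of `φ` on the support
  let inv : (φ : {φ : V ↪ Fin n // K ≤ H.map φ}) → K.support → V := fun φ s =>
    (exists_preimage_of_mem_support n H K φ.1 φ.2 s.1 s.2).choose
  have hinv : ∀ (φ : {φ : V ↪ Fin n // K ≤ H.map φ}) (s : K.support), φ.1 (inv φ s) = s.1 :=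
    fun φ s => (exists_preimage_of_mem_support n H K φ.1 φ.2 s.1 s.2).choose_spec
  let res : {φ : V ↪ Fin n // K ≤ H.map φ} → Copy (K.induce K.support) H := fun φ =>
    ⟨⟨inv φ, by
      intro a b hab
      have h1 : K.Adj a.1 b.1 := hab
      have h2 := φ.2 h1
      rw [SimpleGraph.map_adj] at h2
      obtain ⟨u, v, huv, hu, hv⟩ := h2
      have e1 : inv φ a = u := φ.1.injective ((hinv φ a).trans hu.symm)
      have e2 : inv φ b = v := φ.1.injective ((hinv φ b).trans hv.symm)
      rw [e1, e2]; exact huv⟩, by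
      intro a b hab
      have hab' : inv φ a = inv φ b := hab
      apply Subtype.ext
      rw [← hinv φ a, ← hinv φ b, hab']⟩
  have hres : ∀ (φ : {φ : V ↪ Fin n // K ≤ H.map φ}) (s : K.support), res φ s = inv φ s :=
    fun _ _ => rfl
  have hfib : ∀ θ : Copy (K.induce K.support) H,
      Nat.card {φ : {φ : V ↪ Fin n // K ≤ H.map φ} // res φ = θ} ≤
      (n - Nat.card K.support).descFactorial (Fintype.card V - Nat.card K.support) := by
    intro θ
    let m : {φ : {φ : V ↪ Fin n // K ≤ H.map φ} // res φ = θ} →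
        ({v : V // v ∉ Set.range θ} ↪ {x : Fin n // x ∉ K.support}) :=
      fun φ => ⟨fun v => ⟨φ.1.1 v.1, by
          intro hs
          apply v.2
          refine ⟨⟨_, hs⟩, ?_⟩
          have h0 : θ ⟨_, hs⟩ = inv φ.1 ⟨_, hs⟩ :=
            congrArg (fun k : Copy (K.induce K.support) H => k ⟨_, hs⟩) φ.2.symm
          rw [h0]
          exact φ.1.1.injective (hinv φ.1 ⟨_, hs⟩)⟩, by
          intro v v' h
          have h1 : φ.1.1 v.1 = φ.1.1 v'.1 := congrArg Subtype.val h
          exact Subtype.ext (φ.1.1.injective h1)⟩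
    have hm : Function.Injective m := by
      rintro ⟨φ, hφ⟩ ⟨ψ, hψ⟩ h
      apply Subtype.ext
      apply Subtype.ext
      ext v
      by_cases hv : v ∈ Set.range θ
      · obtain ⟨s, rfl⟩ := hv
        have h1 : φ.1 (θ s) = s.1 := by rw [← hφ, hres]; exact hinv φ s
        have h2 : ψ.1 (θ s) = s.1 := by rw [← hψ, hres]; exact hinv ψ s
        show (φ.1 (θ s) : ℕ) = ψ.1 (θ s)
        rw [h1, h2]
      · have h1 := congrArg (fun k : {v : V // v ∉ Set.range θ} ↪ {x : Fin n // x ∉ K.support} =>
          (k ⟨v, hv⟩).1) h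
        exact congrArg Fin.val h1
    calc Nat.card {φ : {φ : V ↪ Fin n // K ≤ H.map φ} // res φ = θ}
        ≤ Nat.card ({v : V // v ∉ Set.range θ} ↪ {x : Fin n // x ∉ K.support}) :=
          Nat.card_le_card_of_injective m hm
      _ = _ := by
          rw [Nat.card_eq_fintype_card, Fintype.card_embedding_eq, Fintype.card_subtype_compl,
            Fintype.card_subtype_compl]
          congr 2
          · rw [Fintype.card_fin]
          · rw [Nat.card_eq_fintype_card]
          · rw [Nat.card_eq_fintype_card]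
            exact Set.card_range_of_injective θ.injective
  calc Nat.card {φ : V ↪ Fin n // K ≤ H.map φ}
      = Nat.card (Σ θ, {φ : {φ : V ↪ Fin n // K ≤ H.map φ} // res φ = θ}) :=
        (Nat.card_congr (Equiv.sigmaFiberEquiv res)).symm
    _ = ∑ θ, Nat.card {φ : {φ : V ↪ Fin n // K ≤ H.map φ} // res φ = θ} := Nat.card_sigma
    _ ≤ ∑ _θ : Copy (K.induce K.support) H,
        (n - Nat.card K.support).descFactorial (Fintype.card V - Nat.card K.support) :=
        Finset.sum_le_sum fun θ _ => hfib θ
    _ = _ := by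
        rw [Finset.sum_const, Finset.card_univ, smul_eq_mul,
          Nat.card_eq_fintype_card (α := Copy (K.induce K.support) H)]

theorem card_embeddings_ge_le' [Fintype V] [DecidableEq V] (H : SimpleGraph V) (n : ℕ)
    (hVn : Fintype.card V ≤ n) (P : ℝ) (hP0 : 0 ≤ P) (hP1 : P ≤ 1) (hS : Spread n P H)
    (K : SimpleGraph (Fin n)) :
    (Nat.card {φ : V ↪ Fin n // K ≤ H.map φ} : ℝ) ≤
      (n.descFactorial (Fintype.card V) : ℝ) * P ^ Nat.card K.edgeSet := by
  classical
  have h1 := card_embeddings_ge_le n H K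
  have hk : Nat.card K.support ≤ n := by
    calc Nat.card K.support ≤ Nat.card (Fin n) :=
          Nat.card_le_card_of_injective _ Subtype.val_injective
      _ = n := by simp
  have h2 := hS K.support (K.induce K.support) hk
  have h3 : P ^ Nat.card (K.induce K.support).edgeSet ≤ P ^ Nat.card K.edgeSet :=
    pow_le_pow_of_le_one hP0 hP1 (card_edgeSet_le_induce_support K)
  have hR : 0 ≤ (n.descFactorial (Fintype.card V) : ℝ) * P ^ Nat.card K.edgeSet := by positivity
  by_cases hkV : Nat.card K.support ≤ Fintype.card V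
  · have h4 := Nat.descFactorial_mul_descFactorial (n := n) hkV
    have h1' : (Nat.card {φ : V ↪ Fin n // K ≤ H.map φ} : ℝ) ≤
        (Nat.card (Copy (K.induce K.support) H) : ℝ) *
        ((n - Nat.card K.support).descFactorial (Fintype.card V - Nat.card K.support) : ℝ) := by
      exact_mod_cast h1
    calc (Nat.card {φ : V ↪ Fin n // K ≤ H.map φ} : ℝ)
        ≤ (Nat.card (Copy (K.induce K.support) H) : ℝ) *
        ((n - Nat.card K.support).descFactorial (Fintype.card V - Nat.card K.support) : ℝ) := h1'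
      _ ≤ ((n.descFactorial (Nat.card K.support) : ℝ) * P ^ Nat.card K.edgeSet) *
        ((n - Nat.card K.support).descFactorial (Fintype.card V - Nat.card K.support) : ℝ) := by
          apply mul_le_mul_of_nonneg_right _ (by positivity)
          exact h2.trans (mul_le_mul_of_nonneg_left h3 (by positivity))
      _ = (((n - Nat.card K.support).descFactorial (Fintype.card V - Nat.card K.support) *
            n.descFactorial (Nat.card K.support) : ℕ) : ℝ) * P ^ Nat.card K.edgeSet := by
          push_cast; ring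
      _ = _ := by rw [h4]
  · have h5 : IsEmpty (Copy (K.induce K.support) H) := by
      constructor
      intro θ
      apply hkV
      rw [← Nat.card_eq_fintype_card]
      exact Nat.card_le_card_of_injective θ θ.injective
    have h6 : Nat.card (Copy (K.induce K.support) H) = 0 := Nat.card_of_isEmpty
    rw [h6, zero_mul] at h1
    have h7 : Nat.card {φ : V ↪ Fin n // K ≤ H.map φ} = 0 := Nat.le_zero.mp h1
    rw [h7]
    simpa using hR

theorem coverCost_copyFamily [Fintype V] [DecidableEq V] (H : SimpleGraph V) (n : ℕ)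
    (hVn : Fintype.card V ≤ n) (P : ℝ) (hP0 : 0 ≤ P) (hP1 : P ≤ 1) (hS : Spread n P H) :
    CoverCost (copyFamily n H) P 1 := by
  classical
  intro 𝒢 h𝒢
  set D : ℕ := n.descFactorial (Fintype.card V) with hD
  have hDpos : 0 < D := by
    rw [hD, Nat.descFactorial_pos]; exact hVn
  have hcard : Fintype.card (V ↪ Fin n) = D := by
    rw [Fintype.card_embedding_eq, Fintype.card_fin]
  -- every embedding is counted by some member of the cover
  have hcov : (Finset.univ : Finset (V ↪ Fin n)) ⊆
      𝒢.biUnion (fun T => Finset.univ.filter (fun φ : V ↪ Fin n => T ⊆ edgesOf (H.map φ))) := by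
    intro φ _
    obtain ⟨T, hT, hTS⟩ := h𝒢 (edgesOf (H.map φ))
      (Finset.mem_image.mpr ⟨φ, Finset.mem_univ _, rfl⟩)
    exact Finset.mem_biUnion.mpr ⟨T, hT, Finset.mem_filter.mpr ⟨Finset.mem_univ _, hTS⟩⟩
  have hT : ∀ T ∈ 𝒢, ((Finset.univ.filter
      (fun φ : V ↪ Fin n => T ⊆ edgesOf (H.map φ))).card : ℝ) ≤ (D : ℝ) * P ^ T.card := by
    intro T _
    obtain ⟨K, rfl⟩ := (edgesOf_bijective n).2 T
    have h1 := card_embeddings_ge_le' H n hVn P hP0 hP1 hS K
    rw [card_edgesOf]
    have h2 : (Finset.univ.filter (fun φ : V ↪ Fin n => edgesOf K ⊆ edgesOf (H.map φ))).card =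
        Nat.card {φ : V ↪ Fin n // K ≤ H.map φ} := by
      rw [Nat.card_eq_fintype_card, Fintype.card_subtype]
      congr 1
      ext φ
      simp only [Finset.mem_filter, Finset.mem_univ, true_and]
      exact edgesOf_subset_iff K (H.map φ)
    rw [h2]
    exact h1
  have hmain : (D : ℝ) ≤ (D : ℝ) * ∑ T ∈ 𝒢, P ^ T.card := by
    calc (D : ℝ) = ((Finset.univ : Finset (V ↪ Fin n)).card : ℝ) := by
          rw [Finset.card_univ, hcard]
      _ ≤ ((𝒢.biUnion (fun T => Finset.univ.filter
            (fun φ : V ↪ Fin n => T ⊆ edgesOf (H.map φ)))).card : ℝ) := by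
          exact_mod_cast Finset.card_le_card hcov
      _ ≤ ((∑ T ∈ 𝒢, (Finset.univ.filter
            (fun φ : V ↪ Fin n => T ⊆ edgesOf (H.map φ))).card : ℕ) : ℝ) := by
          exact_mod_cast Finset.card_biUnion_le
      _ = ∑ T ∈ 𝒢, ((Finset.univ.filter
            (fun φ : V ↪ Fin n => T ⊆ edgesOf (H.map φ))).card : ℝ) := by push_cast; rfl
      _ ≤ ∑ T ∈ 𝒢, (D : ℝ) * P ^ T.card := Finset.sum_le_sum hT
      _ = _ := by rw [Finset.mul_sum]
  have hD' : (0 : ℝ) < D := by exact_mod_cast hDpos
  nlinarith [hmain]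

/-- the maximum degree bound of `card_copy_le_main` in this language -/
theorem spread_of_hypE [Fintype V] [DecidableEq V] (H : SimpleGraph V)
    [DecidableRel H.Adj] (Δ : ℕ) (hΔ1 : 1 ≤ Δ) (hΔ : ∀ u, H.degree u ≤ Δ) (n : ℕ)
    (hVn : Fintype.card V ≤ n) (p : ℝ) (hp0 : 0 ≤ p) (hp1 : p ≤ 1) (hyp : HypE n p H)
    (hP : 8 * Real.exp 1 ^ 3 * Δ * p ≤ 1) : Spread n (8 * Real.exp 1 ^ 3 * Δ * p) H :=
  fun _ _ F hW => card_copy_le_main H Δ hΔ1 hΔ n hVn p hp0 hp1 hyp hP F hW

end Vale.Agent.Lib.P064
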