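import Vale.Agent.Lib.P064.DefsPC
import Vale.Agent.Lib.P064.Graph.Spread
import Vale.Agent.Lib.P064.PP.Main

/-!
# P064 / Graph: from a spread bound to a bound for `p_c`
-/

namespace Vale.Agent.Lib.P064

open SimpleGraph PP

variable {V : Type}

theorem probContains_eq (n : ℕ) (p : ℝ) [Fintype V] (H : SimpleGraph V) :
    probContains n p H = 1 - failProb p (copyFamily n H) :=
  sum_gnpProb_contains n p H

theorem pC_le_of_failProb [Fintype V] (n : ℕ) (H : SimpleGraph V) (p : ℝ) (hp0 : 0 ≤ p)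
    (hp1 : p ≤ 1) (h : failProb p (copyFamily n H) ≤ 1 / 2) : pC n H ≤ p := by
  refine csInf_le ⟨0, fun x hx => hx.1⟩ ⟨hp0, hp1, ?_⟩
  rw [probContains_eq]
  linarith

theorem pC_le_one [Fintype V] (n : ℕ) (H : SimpleGraph V) (hV : Fintype.card V ≤ n) :
    pC n H ≤ 1 := by
  refine pC_le_of_failProb n H 1 zero_le_one le_rfl ?_
  rw [failProb_one _ (copyFamily_nonempty n H hV)]
  norm_num

theorem pC_le_of_spread [Fintype V] [DecidableEq V] (n : ℕ) (H : SimpleGraph V)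
    (hV : Fintype.card V ≤ n) (P : ℝ) (hP0 : 0 ≤ P) (hS : P ≤ 1 → Spread n P H) :
    pC n H ≤ 16 * P * ((Nat.log 2 (Nat.card H.edgeSet) : ℝ) + 1) := by
  set k : ℝ := (Nat.log 2 (Nat.card H.edgeSet) : ℝ) + 1 with hk
  have hk1 : 1 ≤ k := by
    have : (0 : ℝ) ≤ (Nat.log 2 (Nat.card H.edgeSet) : ℝ) := Nat.cast_nonneg _
    linarith
  rcases le_total (16 * P * k) 1 with h | h
  · have hP1 : P ≤ 1 := by nlinarith
    refine pC_le_of_failProb n H _ (by positivity) h ?_
    exact park_pham (copyFamily n H) (Nat.card H.edgeSet)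
      (fun S hS' => (card_of_mem_copyFamily n H S hS').le) P hP0
      (coverCost_copyFamily H n hV P hP0 hP1 (hS hP1)) _ h le_rfl
  · exact (pC_le_one n H hV).trans h

/-- `log₂ e(H) + 1 ≤ 2 log₂ n` -/
theorem log_card_edgeSet_le [Fintype V] (n : ℕ) (H : SimpleGraph V)
    (hV : Fintype.card V ≤ n) (hH : H ≠ ⊥) :
    ((Nat.log 2 (Nat.card H.edgeSet) : ℝ) + 1) * Real.log 2 ≤ 2 * Real.log n := by
  classical
  have he : Nat.card H.edgeSet ≤ n.choose 2 := by
    rw [Nat.card_eq_fintype_card, ← SimpleGraph.edgeFinset_card]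
    exact H.card_edgeFinset_le_card_choose_two.trans (Nat.choose_le_choose 2 hV)
  have he0 : Nat.card H.edgeSet ≠ 0 := by
    rw [Nat.card_eq_fintype_card, ← SimpleGraph.edgeFinset_card]
    intro h0
    apply hH
    rw [Finset.card_eq_zero, SimpleGraph.edgeFinset_eq_empty] at h0
    exact h0
  have h1 : 2 ^ Nat.log 2 (Nat.card H.edgeSet) ≤ Nat.card H.edgeSet := Nat.pow_log_le_self 2 he0
  have h2 : 2 * n.choose 2 ≤ n ^ 2 := by
    rw [Nat.choose_two_right]
    have : n * (n - 1) / 2 * 2 ≤ n * (n - 1) := Nat.div_mul_le_self _ _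
    have h3 : n * (n - 1) ≤ n * n := Nat.mul_le_mul_left _ (Nat.sub_le _ _)
    nlinarith
  have h3 : 2 ^ (Nat.log 2 (Nat.card H.edgeSet) + 1) ≤ n ^ 2 := by
    rw [pow_succ]
    omega
  have h4 : ((2 : ℝ) ^ (Nat.log 2 (Nat.card H.edgeSet) + 1)) ≤ (n : ℝ) ^ 2 := by exact_mod_cast h3
  have h5 := Real.log_le_log (by positivity) h4
  rw [Real.log_pow, Real.log_pow] at h5
  push_cast at h5
  linarith

end Vale.Agent.Lib.P064
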