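import Vale.Agent.Lib.P064.Expect
import Vale.Agent.Lib.P064.Graph.Threshold

/-!
# P064 / Graph: from a spread bound at `C p` (for every `p` that satisfies the expectation hypothesis)
to `p̃_E ≤ C p_E` and `p_c ≤ 16 C (log₂ e(H) + 1) p_E`
-/

namespace Vale.Agent.Lib.P064

open SimpleGraph

variable {V : Type}

theorem hypE_of_mem [Fintype V] (n : ℕ) (p : ℝ) (H : SimpleGraph V)
    (h : ∀ F : H.Subgraph, 1 / 2 ≤ expCopies n p F.coe) : HypE n p H := by
  intro W' _ F' ⟨f⟩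
  have h1 := h f.toSubgraph
  rw [expCopies_eq, ← copyCount_congr _ f.isoToSubgraph, ← card_edgeSet_congr f.isoToSubgraph] at h1
  exact h1

theorem card_verts_le [Fintype V] (H : SimpleGraph V) (F : H.Subgraph) :
    Nat.card F.verts ≤ Fintype.card V := by
  rw [← Nat.card_eq_fintype_card]
  exact Nat.card_le_card_of_injective _ Subtype.val_injective

theorem copyCount_le_top [Fintype V] (n : ℕ) (hV : Fintype.card V ≤ n) (H : SimpleGraph V)
    {W : Type} [Finite W] (F : SimpleGraph W) :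
    H.copyCount F ≤ (⊤ : SimpleGraph (Fin n)).copyCount F := by
  obtain ⟨φ⟩ : Nonempty (V ↪ Fin n) :=
    Function.Embedding.nonempty_of_card_le (by simpa using hV)
  let g : Copy H (⊤ : SimpleGraph (Fin n)) :=
    ⟨⟨φ, fun {a b} h => by simpa using φ.injective.ne h.ne⟩, φ.injective⟩
  have h1 : Nat.card (Copy F H) ≤ Nat.card (Copy F (⊤ : SimpleGraph (Fin n))) := by
    refine Nat.card_le_card_of_injective (fun f => g.comp f) ?_
    intro f f' h
    ext a
    have := congrArg (fun k : Copy F (⊤ : SimpleGraph (Fin n)) => k a) h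
    exact g.injective this
  rw [card_copy_eq, card_copy_eq] at h1
  exact Nat.le_of_mul_le_mul_right h1 (card_aut_pos F)

theorem card_edgeSet_ne_zero [Fintype V] (H : SimpleGraph V) (hH : H ≠ ⊥) :
    Nat.card H.edgeSet ≠ 0 := by
  classical
  rw [Nat.card_eq_fintype_card, ← SimpleGraph.edgeFinset_card]
  intro h0
  apply hH
  rw [Finset.card_eq_zero, SimpleGraph.edgeFinset_eq_empty] at h0
  exact h0

theorem pos_of_hypE [Fintype V] (n : ℕ) (p : ℝ) (hp0 : 0 ≤ p) (H : SimpleGraph V) (hH : H ≠ ⊥)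
    (hyp : HypE n p H) : 0 < p := by
  rcases hp0.lt_or_eq with h | h
  · exact h
  · exfalso
    have h1 := hyp V H (IsContained.refl H)
    rw [← h, zero_pow (card_edgeSet_ne_zero H hH), mul_zero] at h1
    norm_num at h1

theorem two_le_of_ne_bot [Fintype V] (n : ℕ) (hV : Fintype.card V ≤ n) (H : SimpleGraph V)
    (hH : H ≠ ⊥) : 2 ≤ n := by
  obtain ⟨u, v, huv⟩ : ∃ u v, H.Adj u v := by
    by_contra hcon
    push Not at hcon
    apply hH
    ext a b
    simp [hcon a b]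
  have : 1 < Fintype.card V := Fintype.one_lt_card_iff.mpr ⟨u, v, huv.ne⟩
  omega

theorem copyCount_le_of_spread [Fintype V] (n : ℕ) (H : SimpleGraph V)
    (hV : Fintype.card V ≤ n) (P : ℝ) (hS : Spread n P H) (F : H.Subgraph) :
    (H.copyCount F.coe : ℝ) ≤ expCopies n P F.coe := by
  rw [expCopies_eq]
  have h1 := hS F.verts F.coe ((card_verts_le H F).trans hV)
  have h2 := card_copy_eq H F.coe
  have h3 := card_copy_eq (⊤ : SimpleGraph (Fin n)) F.coe
  rw [card_copy_top] at h3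
  rw [h2, h3] at h1
  have hA : (0 : ℝ) < (Nat.card (F.coe ≃g F.coe) : ℝ) := by exact_mod_cast card_aut_pos F.coe
  push_cast at h1
  have h4 : (H.copyCount F.coe : ℝ) * (Nat.card (F.coe ≃g F.coe) : ℝ) ≤
      (((⊤ : SimpleGraph (Fin n)).copyCount F.coe : ℝ) * P ^ Nat.card F.coe.edgeSet) *
          (Nat.card (F.coe ≃g F.coe) : ℝ) := by
    calc _ ≤ _ := h1
      _ = _ := by ring
  exact le_of_mul_le_mul_right h4 hA

theorem pE_set_nonempty [Fintype V] (n : ℕ) (H : SimpleGraph V) (hV : Fintype.card V ≤ n) :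
    {p : ℝ | 0 ≤ p ∧ p ≤ 1 ∧ ∀ F : H.Subgraph, 1 / 2 ≤ expCopies n p F.coe}.Nonempty := by
  refine ⟨1, zero_le_one, le_rfl, fun F => ?_⟩
  rw [expCopies_eq, one_pow, mul_one]
  have h1 : 0 < H.copyCount F.coe := copyCount_pos.mpr F.coe_isContained
  have h2 := copyCount_le_top n hV H F.coe
  have h3 : (1 : ℝ) ≤ ((⊤ : SimpleGraph (Fin n)).copyCount F.coe : ℝ) := by
    exact_mod_cast h1.trans_le h2
  linarith

/-- if `x ≤ D p` for every `p` in the set that defines `p_E` then `x ≤ D p_E` -/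
theorem le_mul_pE [Fintype V] (n : ℕ) (H : SimpleGraph V) (hV : Fintype.card V ≤ n) (x D : ℝ)
    (hD : 0 < D)
    (h : ∀ p : ℝ, 0 ≤ p → p ≤ 1 → (∀ F : H.Subgraph, 1 / 2 ≤ expCopies n p F.coe) → x ≤ D * p) :
    x ≤ D * pE n H := by
  have h1 : x / D ≤ pE n H := by
    refine le_csInf (pE_set_nonempty n H hV) fun p hp => ?_
    rw [div_le_iff₀ hD, mul_comm]
    exact h p hp.1 hp.2.1 hp.2.2
  rw [div_le_iff₀ hD] at h1
  linarith

theorem pE_nonneg (n : ℕ) (H : SimpleGraph V) : 0 ≤ pE n H :=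
  Real.sInf_nonneg fun _ hp => hp.1

theorem pETilde_le_of_spread [Fintype V] (n : ℕ) (H : SimpleGraph V) (hV : Fintype.card V ≤ n)
    (C : ℝ) (hC : 0 < C)
    (h : ∀ p : ℝ, 0 ≤ p → p ≤ 1 → HypE n p H → C * p ≤ 1 → Spread n (C * p) H) :
    pETilde n H ≤ C * pE n H := by
  refine le_mul_pE n H hV _ C hC fun p hp0 hp1 hp => ?_
  have hmem : min 1 (C * p) ∈ {p : ℝ | 0 ≤ p ∧ p ≤ 1 ∧
      ∀ F : H.Subgraph, (H.copyCount F.coe : ℝ) / 2 ≤ expCopies n p F.coe} := by
    refine ⟨le_min zero_le_one (mul_nonneg hC.le hp0), min_le_left _ _, fun F => ?_⟩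
    have h2 : (0 : ℝ) ≤ (H.copyCount F.coe : ℝ) := Nat.cast_nonneg _
    have h1 : (H.copyCount F.coe : ℝ) ≤ expCopies n (min 1 (C * p)) F.coe := by
      rcases le_total (C * p) 1 with hP | hP
      · rw [min_eq_right hP]
        exact copyCount_le_of_spread n H hV _ (h p hp0 hp1 (hypE_of_mem n p H hp) hP) F
      · rw [min_eq_left hP, expCopies_eq, one_pow, mul_one]
        exact_mod_cast copyCount_le_top n hV H F.coe
    linarith
  exact (csInf_le ⟨0, fun p hp => hp.1⟩ hmem).trans (min_le_right _ _)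

theorem pC_le_of_spread_const [Fintype V] [DecidableEq V] (n : ℕ) (H : SimpleGraph V)
    (hV : Fintype.card V ≤ n) (C : ℝ) (hC : 0 < C)
    (h : ∀ p : ℝ, 0 ≤ p → p ≤ 1 → HypE n p H → C * p ≤ 1 → Spread n (C * p) H) :
    pC n H ≤ 16 * C * ((Nat.log 2 (Nat.card H.edgeSet) : ℝ) + 1) * pE n H := by
  have hk : (0 : ℝ) < (Nat.log 2 (Nat.card H.edgeSet) : ℝ) + 1 := by positivity
  refine le_mul_pE n H hV _ _ (by positivity) fun p hp0 hp1 hp => ?_
  have h1 := pC_le_of_spread n H hV (C * p) (mul_nonneg hC.le hp0)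
    (fun hP => h p hp0 hp1 (hypE_of_mem n p H hp) hP)
  calc pC n H ≤ _ := h1
    _ = _ := by ring

end Vale.Agent.Lib.P064
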